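import Vale.Agent.H69.RankLe3
import Vale.Agent.H69.Pullback
import Vale.Agent.H69.Lift3Main

/-!
# P256 (Projected Lax conjecture): three classes of hyperbolic cubics whose hyperbolicity cones
are spectrahedral shadows

The two classes of `A0000_TwoCubicClasses`, and the normal form of the rank-three case written
out.

(1) Let `p` be a real cubic form in `n` variables, hyperbolic with respect to `e`.  If `p` has a
singular point `a` (the gradient of `p` vanishes at `a`) at which the Hessian
matrix of `p` has rank one, two or three, then the closed hyperbolicity cone of `p` is a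
spectrahedron, and in particular a spectrahedral shadow.

(2) Let `q` be a quadratic form hyperbolic with respect to `e`, let `L` and `m j` be arbitrary
linear forms and `l j` linear forms that are nonnegative on the hyperbolicity cone of `q`.  If the
cubic `p = L * q - ∑ j, (m j)^2 * l j` is positive at `e`, then `p` is hyperbolic with respect to
`e` and its closed hyperbolicity cone is a spectrahedral shadow.

(3) For every `k` and every cubic form `c` in `k + 3` variables: if the cubic
`p = x0 * (x2 * x3 - x1^2) - c(x1, ..., x_{k+3})` in `k + 4` variables is hyperbolic with respect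
to a direction `e` with `e1^2 < e2 * e3` and `0 < e2`, then the closed hyperbolicity cone of `p`
is a spectrahedral shadow.  Here `(1, 0, ..., 0)` is a singular point of `p` whose Hessian has
rank three, so (3) is a family of instances of (1), in explicit coordinates.
-/

namespace Vale.Agent.Results.P256.A00000_ThreeCubicClasses

open Vale.Agent.H69

theorem result :
    (∀ (n : ℕ) (p : MvPolynomial (Fin n) ℝ) (e a : Fin n → ℝ) (H : Matrix (Fin n) (Fin n) ℝ),
      p.IsHomogeneous 3 → IsHyperbolic p e →
      (∀ i, MvPolynomial.eval a (MvPolynomial.pderiv i p) = 0) →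
      (∀ i j, H i j = MvPolynomial.eval a (MvPolynomial.pderiv i (MvPolynomial.pderiv j p))) →
      1 ≤ H.rank → H.rank ≤ 3 →
      IsSpectrahedron (hypCone p e) ∧ IsSpectrahedralShadow (hypCone p e)) ∧
    (∀ (n J : ℕ) (q L p : MvPolynomial (Fin n) ℝ) (m l : Fin J → MvPolynomial (Fin n) ℝ)
      (e : Fin n → ℝ),
      q.IsHomogeneous 2 → L.IsHomogeneous 1 → (∀ j, (m j).IsHomogeneous 1) →
      (∀ j, (l j).IsHomogeneous 1) → IsHyperbolic q e →
      (∀ j, ∀ y ∈ hypCone q e, 0 ≤ MvPolynomial.eval y (l j)) →
      p = L * q - ∑ j, (m j) ^ 2 * l j → 0 < MvPolynomial.eval e p →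
      IsHyperbolic p e ∧ IsSpectrahedralShadow (hypCone p e)) ∧
    (∀ (k : ℕ) (c : MvPolynomial (Fin (k + 3)) ℝ) (e : Fin (k + 4) → ℝ),
      c.IsHomogeneous 3 → 0 < e 2 → e 1 ^ 2 < e 2 * e 3 →
      IsHyperbolic (MvPolynomial.X 0 * (MvPolynomial.X 2 * MvPolynomial.X 3 - MvPolynomial.X 1 ^ 2)
        - MvPolynomial.rename Fin.succ c) e →
      IsSpectrahedralShadow (hypCone
        (MvPolynomial.X 0 * (MvPolynomial.X 2 * MvPolynomial.X 3 - MvPolynomial.X 1 ^ 2)
          - MvPolynomial.rename Fin.succ c) e)) := by
  refine ⟨?_, ?_, ?_⟩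
  · intro n p e a H hp3 hyp hgrad hH hH1 hH3
    have hHeq : H = Matrix.of fun i j =>
        MvPolynomial.eval a (MvPolynomial.pderiv i (MvPolynomial.pderiv j p)) := by
      ext i j
      exact hH i j
    rw [hHeq] at hH1 hH3
    exact ⟨cubic_node_spectrahedron_le3 n p hp3 e a hyp hgrad hH1 hH3,
      (cubic_node_spectrahedron_le3 n p hp3 e a hyp hgrad hH1 hH3).shadow⟩
  · intro n J q L p m l e hq2 hL hm hl1 hq hl hpe hp
    subst hpe
    exact certCubic_main' q L m l e hq2 hL hm hl1 hq hl hp
  · intro k c e hc he2 he hyp
    exact nodeCubic_shadow c hc e he2 he hyp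

end Vale.Agent.Results.P256.A00000_ThreeCubicClasses
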