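import Vale.Agent.H69.RankLe3

/-!
# P256 (Projected Lax conjecture): hyperbolic cubics with a singular point of Hessian rank one,
two or three have spectrahedral hyperbolicity cones

Let `p` be a real cubic form in `n` variables, hyperbolic with respect to `e`.  If `p` has a
singular point `a` (all first partial derivatives of `p` vanish at `a`) at which the Hessian
matrix of `p` is nonzero and has rank at most three, then the closed hyperbolicity cone of `p` is
a spectrahedron `{x | A0 + ∑ x_i A_i ⪰ 0}`: no lifting variables are needed.  In particular it is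
a spectrahedral shadow.

* Rank three: the tangent cone at the singular point is a Lorentz cone.  The cubic is brought to
  the normal form `l0 * (l2 * l3 - l1^2) - c(l1, ..., l_{n-1})`; hyperbolicity makes `c`
  nonnegative on the boundary of the Lorentz cone, the matrix Fejér–Riesz theorem writes
  `c = ∑ w_j^T U w_j + λ * (l2 * l3 - l1^2)` with `U = [[l2, l1], [l1, l3]]`, and the cone is cut
  out by `U ⪰ 0` together with a bordered inequality `[[l0 - λ, w^T], [w, I ⊗ adj U]] ⪰ 0`.
* Rank two: the tangent cone is a wedge `{l1 ≥ 0, l2 ≥ 0}`.  Hyperbolicity forces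
  `p = ℓ * l1 * l2 - l1 * N1 - l2 * N2` with positive semidefinite quadratic forms `N1`, `N2`.
* Rank one: the tangent cone is a half-space `{f ≥ 0}` and `p = f * (ℓ * f - N)` with `N`
  positive semidefinite.

In the last two cases the cone is again cut out by a bordered linear matrix inequality.
-/

namespace Vale.Agent.Results.P256.A000_RankLeThreeSpectrahedron

open Vale.Agent.H69

theorem result (n : ℕ) (p : MvPolynomial (Fin n) ℝ) (hp3 : p.IsHomogeneous 3)
    (e a : Fin n → ℝ) (hyp : IsHyperbolic p e)
    (hgrad : ∀ i, MvPolynomial.eval a (MvPolynomial.pderiv i p) = 0)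
    (hH1 : 1 ≤ (Matrix.of fun i j =>
      MvPolynomial.eval a (MvPolynomial.pderiv i (MvPolynomial.pderiv j p))).rank)
    (hH3 : (Matrix.of fun i j =>
      MvPolynomial.eval a (MvPolynomial.pderiv i (MvPolynomial.pderiv j p))).rank ≤ 3) :
    IsSpectrahedron (hypCone p e) ∧ IsSpectrahedralShadow (hypCone p e) :=
  ⟨cubic_node_spectrahedron_le3 n p hp3 e a hyp hgrad hH1 hH3,
    (cubic_node_spectrahedron_le3 n p hp3 e a hyp hgrad hH1 hH3).shadow⟩

end Vale.Agent.Results.P256.A000_RankLeThreeSpectrahedron
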