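import Vale.Agent.H69.IntrinsicSpec

/-!
# P256 (Projected Lax conjecture): hyperbolic cubics with a singular point of Hessian rank three
have spectrahedral hyperbolicity cones

Let `p` be a real cubic form in `n` variables, hyperbolic with respect to `e`.  If `p` has a
singular point `a` (all first partial derivatives of `p` vanish at `a`) at which the Hessian
matrix of `p` has rank three, then the closed hyperbolicity cone of `p` is a spectrahedron
`{x | A0 + ∑ x_i A_i ⪰ 0}`: no lifting variables are needed.  In particular it is a spectrahedral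
shadow.

The proof brings `p` to the normal form `l0 * (l2 * l3 - l1^2) - c(l1, ..., l_{n-1})`, derives
from hyperbolicity that `c` is nonnegative on the boundary of the Lorentz cone, writes
`c = ∑ w_j^T U w_j + λ * (l2 * l3 - l1^2)` with `U = [[l2, l1], [l1, l3]]` by the matrix
Fejér–Riesz theorem, and shows that the cone is cut out by `U ⪰ 0` together with the bordered
inequality `[[l0 - λ, w^T], [w, I ⊗ adj U]] ⪰ 0`.
-/

namespace Vale.Agent.Results.P256.A00_RankThreeSpectrahedron

open Vale.Agent.H69

theorem result (n : ℕ) (p : MvPolynomial (Fin n) ℝ) (hp3 : p.IsHomogeneous 3)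
    (e a : Fin n → ℝ) (hyp : IsHyperbolic p e)
    (hgrad : ∀ i, MvPolynomial.eval a (MvPolynomial.pderiv i p) = 0)
    (hH : (Matrix.of fun i j =>
      MvPolynomial.eval a (MvPolynomial.pderiv i (MvPolynomial.pderiv j p))).rank = 3) :
    IsSpectrahedron (hypCone p e) ∧ IsSpectrahedralShadow (hypCone p e) :=
  ⟨cubic_node_spectrahedron n p hp3 e a hyp hgrad hH,
    (cubic_node_spectrahedron n p hp3 e a hyp hgrad hH).shadow⟩

end Vale.Agent.Results.P256.A00_RankThreeSpectrahedron
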