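import Vale.Agent.H69.Intrinsic

/-!
# P256 (Projected Lax conjecture): hyperbolic cubics with a singular point of Hessian rank three

Let `p` be a real cubic form in `n` variables, hyperbolic with respect to `e`.  If `p` has a
singular point `a` (all first partial derivatives of `p` vanish at `a`) at which the Hessian
matrix of `p` has rank three, then the closed hyperbolicity cone of `p` is a spectrahedral shadow.

Such a cone has a singular boundary point (`a` or `-a`), so the smooth-boundary theorems do not
apply.  The proof shows that the tangent cone at `a` is Lorentzian, brings `p` to the normal form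
`l0 * (l2 * l3 - l1^2) - c(l1, ..., l_{n-1})` by a linear change of variables, derives from
hyperbolicity that `c` is nonnegative on the boundary of the Lorentz cone, turns this into a
certificate by the matrix Fejér–Riesz theorem on the real line, and reads off a semidefinite lift.
-/

namespace Vale.Agent.Results.P256.A0_SingularPointRankThree

open Vale.Agent.H69

theorem result (n : ℕ) (p : MvPolynomial (Fin n) ℝ) (hp3 : p.IsHomogeneous 3)
    (e a : Fin n → ℝ) (hyp : IsHyperbolic p e)
    (hgrad : ∀ i, MvPolynomial.eval a (MvPolynomial.pderiv i p) = 0)
    (hH : (Matrix.of fun i j =>
      MvPolynomial.eval a (MvPolynomial.pderiv i (MvPolynomial.pderiv j p))).rank = 3) :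
    IsSpectrahedralShadow (hypCone p e) :=
  cubic_node_shadow n p hp3 e a hyp hgrad hH

end Vale.Agent.Results.P256.A0_SingularPointRankThree
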