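import Vale.Agent.H69.Pullback

/-!
# P256 (Projected Lax conjecture): a class of cubic hyperbolic polynomials

For every number of variables `n`: let `q` be a quadratic form that is hyperbolic with respect to
`e`, let `L` and `m j` be arbitrary linear forms, and let `l j` be linear forms that are
nonnegative on the hyperbolicity cone of `q`.  If the cubic `p = L * q - ∑ j, (m j)^2 * l j` is
positive at `e`, then `p` is hyperbolic with respect to `e` and its closed hyperbolicity cone is a
spectrahedral shadow.
-/

namespace Vale.Agent.Results.P256.A_CubicCertificate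

open Vale.Agent.H69

theorem result (n J : ℕ) (q L : MvPolynomial (Fin n) ℝ)
    (m l : Fin J → MvPolynomial (Fin n) ℝ) (e : Fin n → ℝ)
    (hq2 : q.IsHomogeneous 2) (hL : L.IsHomogeneous 1)
    (hm : ∀ j, (m j).IsHomogeneous 1) (hl1 : ∀ j, (l j).IsHomogeneous 1)
    (hq : IsHyperbolic q e)
    (hl : ∀ j, ∀ y ∈ hypCone q e, 0 ≤ MvPolynomial.eval y (l j))
    (hp : 0 < MvPolynomial.eval e (L * q - ∑ j, (m j) ^ 2 * l j)) :
    IsHyperbolic (L * q - ∑ j, (m j) ^ 2 * l j) e ∧
      IsSpectrahedralShadow (hypCone (L * q - ∑ j, (m j) ^ 2 * l j) e) :=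
  certCubic_main' q L m l e hq2 hL hm hl1 hq hl hp

end Vale.Agent.Results.P256.A_CubicCertificate
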