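import Vale.Agent.H69.Lift3Main

/-!
# P256 (Projected Lax conjecture): hyperbolic cubics with a rank-three double point

For every `k` and every cubic form `c` in `k + 3` variables: if the cubic
`p = x0 * (x2 * x3 - x1^2) - c(x1, ..., x_{k+3})` in `k + 4` variables is hyperbolic with respect
to a direction `e` lying in the forward Lorentz cone of its quadratic part
(`e1^2 < e2 * e3`, `0 < e2`), then the closed hyperbolicity cone of `p` is a spectrahedral shadow.

The point `(1, 0, ..., 0)` is a double point of `p` whose Hessian `x2 * x3 - x1^2` has rank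
three, so the boundary of the cone is not smooth there.  The proof derives from hyperbolicity
that `c` is nonnegative on the boundary of the Lorentz cone, turns this into a certificate
`c = ∑ w_j^T U w_j + λ * (x2 * x3 - x1^2)`, `U = [[x2, x1], [x1, x3]]`, by the matrix
Fejér–Riesz theorem on the real line, and reads off a semidefinite lift.
-/

namespace Vale.Agent.Results.P256.B_RankThreeNode

open Vale.Agent.H69 MvPolynomial

theorem result (k : ℕ) (c : MvPolynomial (Fin (k + 3)) ℝ) (hc : c.IsHomogeneous 3)
    (e : Fin (k + 4) → ℝ) (he2 : 0 < e 2) (he : e 1 ^ 2 < e 2 * e 3)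
    (hyp : IsHyperbolic (X 0 * (X 2 * X 3 - X 1 ^ 2) - rename Fin.succ c) e) :
    IsSpectrahedralShadow (hypCone (X 0 * (X 2 * X 3 - X 1 ^ 2) - rename Fin.succ c) e) :=
  nodeCubic_shadow c hc e he2 he hyp

end Vale.Agent.Results.P256.B_RankThreeNode
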